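import Vale.Agent.H41.PottsTreeDefs

/-!
# Reconstruction below the Kesten-Stigum bound by a recursive hard decoder

A recursive decoder reads a spin off a subtree when exactly one spin is missing among the
decoded spins of the children.  Its success and error probabilities obey explicit recursive
inequalities which give an invariant region for the four-state channel on the `9`-ary tree.
-/

open Finset

namespace Vale.Agent.H41

/-- The recursive hard decoder: `Forced q d n y c` says that the decoder reads the spin `c`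
off the configuration `y` at distance `n`. -/
def Forced (q d : ℕ) : (n : ℕ) → LevelConfig q d n → Fin q → Prop
  | 0, y, c => (show Fin q from y) = c
  | n + 1, y, c =>
    (∀ k : Fin d, ¬ Forced q d n (y k) c) ∧
      ∀ c' : Fin q, c' ≠ c → ∃ k : Fin d, Forced q d n (y k) c'

theorem forced_unique (q d : ℕ) : ∀ (n : ℕ) (y : LevelConfig q d n) (c c' : Fin q),
    Forced q d n y c → Forced q d n y c' → c = c'
  | 0, y, c, c', h, h' => by
    have h1 : (show Fin q from y) = c := h
    have h2 : (show Fin q from y) = c' := h'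
    rw [← h1, ← h2]
  | n + 1, y, c, c', h, h' => by
    by_contra hne
    obtain ⟨k, hk⟩ := h'.2 c hne
    exact h.1 k hk

theorem pottsChannel_sum (q : ℕ) (hq : 0 < q) (lam : ℝ) (i : Fin q) :
    ∑ j : Fin q, pottsChannel q lam i j = 1 := by
  unfold pottsChannel
  rw [Finset.sum_add_distrib, Finset.sum_ite_eq, Finset.sum_const, Finset.card_univ,
    Fintype.card_fin]
  have hq' : (q : ℝ) ≠ 0 := by exact_mod_cast hq.ne'
  simp only [Finset.mem_univ, if_true, nsmul_eq_mul]
  field_simp
  ring

theorem levelProb_nonneg (q d : ℕ) (lam : ℝ)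
    (hM : ∀ i j : Fin q, 0 ≤ pottsChannel q lam i j) :
    ∀ (n : ℕ) (i : Fin q) (y : LevelConfig q d n), 0 ≤ levelProb q d lam n i y
  | 0, i, y => by
    unfold levelProb
    split_ifs <;> norm_num
  | n + 1, i, y => by
    unfold levelProb
    refine Finset.prod_nonneg fun k _ => Finset.sum_nonneg fun j _ => ?_
    exact mul_nonneg (hM i j) (levelProb_nonneg q d lam hM n j (y k))

theorem sum_level_succ (q d n : ℕ) (f : LevelConfig q d (n + 1) → ℝ) :
    ∑ y : LevelConfig q d (n + 1), f y = ∑ y : Fin d → LevelConfig q d n, f y := rfl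

theorem levelProb_sum (q d : ℕ) (hq : 0 < q) (lam : ℝ) :
    ∀ (n : ℕ) (i : Fin q), ∑ y : LevelConfig q d n, levelProb q d lam n i y = 1
  | 0, i => by
    have : ∀ y : LevelConfig q d 0, levelProb q d lam 0 i y
        = if (show Fin q from y) = i then 1 else 0 := fun y => rfl
    simp only [this]
    exact (Finset.sum_ite_eq' (Finset.univ : Finset (Fin q)) i (fun _ => (1 : ℝ))).trans
      (by simp)
  | n + 1, i => by
    rw [sum_level_succ]
    have h1 : ∀ y : Fin d → LevelConfig q d n, levelProb q d lam (n + 1) i y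
        = ∏ k : Fin d, ∑ j : Fin q, pottsChannel q lam i j * levelProb q d lam n j (y k) :=
      fun y => rfl
    simp only [h1]
    rw [← Fintype.prod_sum (fun (_ : Fin d) (x : LevelConfig q d n) =>
      ∑ j : Fin q, pottsChannel q lam i j * levelProb q d lam n j x)]
    have h2 : ∑ x : LevelConfig q d n, ∑ j : Fin q,
        pottsChannel q lam i j * levelProb q d lam n j x = 1 := by
      rw [Finset.sum_comm]
      simp only [← Finset.mul_sum]
      simp only [levelProb_sum q d hq lam n, mul_one]
      exact pottsChannel_sum q hq lam i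
    simp only [h2, Finset.prod_const_one]

end Vale.Agent.H41

namespace Vale.Agent.H41

/-- Real-valued indicator of a proposition. -/
noncomputable def ind (p : Prop) : ℝ := by
  classical exact if p then 1 else 0

theorem ind_of (p : Prop) (h : p) : ind p = 1 := by
  unfold ind; simp [h]

theorem ind_of_not (p : Prop) (h : ¬ p) : ind p = 0 := by
  unfold ind; simp [h]

theorem ind_nonneg (p : Prop) : 0 ≤ ind p := by
  by_cases h : p
  · rw [ind_of p h]; norm_num
  · rw [ind_of_not p h]

theorem ind_le_one (p : Prop) : ind p ≤ 1 := by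
  by_cases h : p
  · rw [ind_of p h]
  · rw [ind_of_not p h]; norm_num

theorem ind_not (p : Prop) : ind (¬ p) = 1 - ind p := by
  by_cases h : p
  · rw [ind_of p h, ind_of_not (¬ p) (not_not.mpr h)]; norm_num
  · rw [ind_of_not p h, ind_of (¬ p) h]; norm_num

/-! ### Sums over product configurations -/

section ProductSums

variable {X : Type} [Fintype X] {d : ℕ}

theorem sum_prod_all (ν b : X → ℝ) :
    ∑ y : Fin d → X, (∏ k : Fin d, ν (y k)) * ∏ k : Fin d, b (y k)
      = (∑ x : X, ν x * b x) ^ d := by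
  simp only [← Finset.prod_mul_distrib]
  rw [← Fintype.prod_sum (fun (_ : Fin d) (x : X) => ν x * b x)]
  simp

theorem sum_prod_one (ν : X → ℝ) (hν : ∑ x : X, ν x = 1) :
    ∑ y : Fin d → X, ∏ k : Fin d, ν (y k) = 1 := by
  rw [← Fintype.prod_sum (fun (_ : Fin d) (x : X) => ν x)]
  simp [hν]

theorem sum_prod_single (ν a : X → ℝ) (hν : ∑ x : X, ν x = 1) (k0 : Fin d) :
    ∑ y : Fin d → X, (∏ k : Fin d, ν (y k)) * a (y k0) = ∑ x : X, ν x * a x := by
  have h1 : ∀ y : Fin d → X, (∏ k : Fin d, ν (y k)) * a (y k0)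
      = ∏ k : Fin d, ν (y k) * (if k = k0 then a (y k) else 1) := by
    intro y
    rw [Finset.prod_mul_distrib, Finset.prod_ite_eq' Finset.univ k0 (fun k => a (y k))]
    simp
  simp only [h1]
  rw [← Fintype.prod_sum (fun (k : Fin d) (x : X) => ν x * (if k = k0 then a x else 1))]
  have h2 : ∀ k : Fin d, ∑ x : X, ν x * (if k = k0 then a x else 1)
      = if k = k0 then ∑ x : X, ν x * a x else 1 := by
    intro k
    by_cases hk : k = k0
    · simp [hk]
    · simp [hk, hν]
  simp only [h2]
  rw [Finset.prod_ite_eq' Finset.univ k0 (fun _ => ∑ x : X, ν x * a x)]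
  simp

theorem sum_prod_single_all (ν a b : X → ℝ) (k0 : Fin d) :
    ∑ y : Fin d → X, (∏ k : Fin d, ν (y k)) *
        (a (y k0) * ∏ k ∈ Finset.univ.erase k0, b (y k))
      = (∑ x : X, ν x * a x) * (∑ x : X, ν x * b x) ^ (d - 1) := by
  have h1 : ∀ y : Fin d → X, (∏ k : Fin d, ν (y k)) *
        (a (y k0) * ∏ k ∈ Finset.univ.erase k0, b (y k))
      = ∏ k : Fin d, ν (y k) * (if k = k0 then a (y k) else b (y k)) := by
    intro y
    rw [Finset.prod_mul_distrib]
    congr 1
    rw [← Finset.mul_prod_erase Finset.univ _ (Finset.mem_univ k0)]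
    simp only [if_true]
    congr 1
    refine Finset.prod_congr rfl fun k hk => ?_
    rw [if_neg (Finset.ne_of_mem_erase hk)]
  simp only [h1]
  rw [← Fintype.prod_sum (fun (k : Fin d) (x : X) => ν x * (if k = k0 then a x else b x))]
  have h2 : ∀ k : Fin d, ∑ x : X, ν x * (if k = k0 then a x else b x)
      = if k = k0 then ∑ x : X, ν x * a x else ∑ x : X, ν x * b x := by
    intro k
    by_cases hk : k = k0
    · simp [hk]
    · simp [hk]
  simp only [h2]
  rw [← Finset.mul_prod_erase Finset.univ _ (Finset.mem_univ k0)]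
  simp only [if_true]
  congr 1
  have h3 : ∀ k ∈ Finset.univ.erase k0,
      (if k = k0 then ∑ x : X, ν x * a x else ∑ x : X, ν x * b x) = ∑ x : X, ν x * b x := by
    intro k hk
    rw [if_neg (Finset.ne_of_mem_erase hk)]
  rw [Finset.prod_congr rfl h3, Finset.prod_const, Finset.card_erase_of_mem (Finset.mem_univ k0),
    Finset.card_univ, Fintype.card_fin]

end ProductSums

end Vale.Agent.H41

namespace Vale.Agent.H41

/-! ### Statistics of the decoder -/

/-- The law of the configuration below one child of a vertex with spin `i`. -/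
noncomputable def childProb (q d : ℕ) (lam : ℝ) (n : ℕ) (i : Fin q)
    (x : LevelConfig q d n) : ℝ :=
  ∑ j : Fin q, pottsChannel q lam i j * levelProb q d lam n j x

theorem levelProb_succ (q d : ℕ) (lam : ℝ) (n : ℕ) (i : Fin q)
    (y : Fin d → LevelConfig q d n) :
    levelProb q d lam (n + 1) i y = ∏ k : Fin d, childProb q d lam n i (y k) := rfl

theorem childProb_nonneg (q d : ℕ) (lam : ℝ)
    (hM : ∀ i j : Fin q, 0 ≤ pottsChannel q lam i j) (n : ℕ) (i : Fin q)
    (x : LevelConfig q d n) : 0 ≤ childProb q d lam n i x :=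
  Finset.sum_nonneg fun j _ => mul_nonneg (hM i j) (levelProb_nonneg q d lam hM n j x)

theorem childProb_sum (q d : ℕ) (hq : 0 < q) (lam : ℝ) (n : ℕ) (i : Fin q) :
    ∑ x : LevelConfig q d n, childProb q d lam n i x = 1 := by
  unfold childProb
  rw [Finset.sum_comm]
  simp only [← Finset.mul_sum]
  simp only [levelProb_sum q d hq lam n, mul_one]
  exact pottsChannel_sum q hq lam i

/-- The probability that the decoder reads `c` at distance `n` when the root has spin `i`. -/
noncomputable def forcedProb (q d : ℕ) (lam : ℝ) (n : ℕ) (i c : Fin q) : ℝ :=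
  ∑ y : LevelConfig q d n, levelProb q d lam n i y * ind (Forced q d n y c)

theorem forcedProb_nonneg (q d : ℕ) (lam : ℝ)
    (hM : ∀ i j : Fin q, 0 ≤ pottsChannel q lam i j) (n : ℕ) (i c : Fin q) :
    0 ≤ forcedProb q d lam n i c :=
  Finset.sum_nonneg fun y _ => mul_nonneg (levelProb_nonneg q d lam hM n i y) (ind_nonneg _)

theorem forcedProb_le_one (q d : ℕ) (hq : 0 < q) (lam : ℝ)
    (hM : ∀ i j : Fin q, 0 ≤ pottsChannel q lam i j) (n : ℕ) (i c : Fin q) :
    forcedProb q d lam n i c ≤ 1 := by
  rw [← levelProb_sum q d hq lam n i]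
  refine Finset.sum_le_sum fun y _ => ?_
  calc levelProb q d lam n i y * ind (Forced q d n y c)
      ≤ levelProb q d lam n i y * 1 :=
        mul_le_mul_of_nonneg_left (ind_le_one _) (levelProb_nonneg q d lam hM n i y)
    _ = levelProb q d lam n i y := mul_one _

theorem forcedProb_zero_self (q d : ℕ) (lam : ℝ) (i : Fin q) :
    forcedProb q d lam 0 i i = 1 := by
  unfold forcedProb
  have h : ∀ y : LevelConfig q d 0, levelProb q d lam 0 i y * ind (Forced q d 0 y i)
      = if (show Fin q from y) = i then 1 else 0 := by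
    intro y
    have h1 : levelProb q d lam 0 i y = if (show Fin q from y) = i then 1 else 0 := rfl
    by_cases hy : (show Fin q from y) = i
    · have h2 : Forced q d 0 y i := hy
      rw [h1, ind_of _ h2, if_pos hy]; norm_num
    · rw [h1, if_neg hy]; simp
  simp only [h]
  exact (Finset.sum_ite_eq' (Finset.univ : Finset (Fin q)) i (fun _ => (1 : ℝ))).trans
    (by simp)

theorem forcedProb_zero_ne (q d : ℕ) (lam : ℝ) (i c : Fin q) (hic : i ≠ c) :
    forcedProb q d lam 0 i c = 0 := by
  unfold forcedProb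
  refine Finset.sum_eq_zero fun y _ => ?_
  have h1 : levelProb q d lam 0 i y = if (show Fin q from y) = i then 1 else 0 := rfl
  by_cases hy : (show Fin q from y) = i
  · have h2 : ¬ Forced q d 0 y c := by
      intro h
      have h3 : (show Fin q from y) = c := h
      exact hic (hy.symm.trans h3)
    rw [ind_of_not _ h2, mul_zero]
  · rw [h1, if_neg hy, zero_mul]

/-- The probability that the decoder reads `c` below a child of a vertex with spin `i`. -/
noncomputable def childForced (q d : ℕ) (lam : ℝ) (n : ℕ) (i c : Fin q) : ℝ :=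
  ∑ x : LevelConfig q d n, childProb q d lam n i x * ind (Forced q d n x c)

theorem childForced_eq (q d : ℕ) (lam : ℝ) (n : ℕ) (i c : Fin q) :
    childForced q d lam n i c
      = ∑ j : Fin q, pottsChannel q lam i j * forcedProb q d lam n j c := by
  unfold childForced childProb forcedProb
  simp only [Finset.sum_mul, Finset.mul_sum]
  rw [Finset.sum_comm]
  refine Finset.sum_congr rfl fun j _ => Finset.sum_congr rfl fun x _ => ?_
  ring

theorem childForced_nonneg (q d : ℕ) (lam : ℝ)
    (hM : ∀ i j : Fin q, 0 ≤ pottsChannel q lam i j) (n : ℕ) (i c : Fin q) :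
    0 ≤ childForced q d lam n i c :=
  Finset.sum_nonneg fun x _ => mul_nonneg (childProb_nonneg q d lam hM n i x) (ind_nonneg _)

theorem childNotForced_eq (q d : ℕ) (hq : 0 < q) (lam : ℝ) (n : ℕ) (i c : Fin q) :
    ∑ x : LevelConfig q d n, childProb q d lam n i x * ind (¬ Forced q d n x c)
      = 1 - childForced q d lam n i c := by
  unfold childForced
  rw [← childProb_sum q d hq lam n i, ← Finset.sum_sub_distrib]
  refine Finset.sum_congr rfl fun x _ => ?_
  rw [ind_not]; ring

theorem childNotForced_nonneg (q d : ℕ) (hq : 0 < q) (lam : ℝ)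
    (hM : ∀ i j : Fin q, 0 ≤ pottsChannel q lam i j) (n : ℕ) (i c : Fin q) :
    0 ≤ 1 - childForced q d lam n i c := by
  rw [← childNotForced_eq q d hq lam n i c]
  exact Finset.sum_nonneg fun x _ =>
    mul_nonneg (childProb_nonneg q d lam hM n i x) (ind_nonneg _)

end Vale.Agent.H41

namespace Vale.Agent.H41

/-! ### The two recursive inequalities -/

theorem forced_succ_ge (q d n : ℕ) (y : Fin d → LevelConfig q d n) (i : Fin q) :
    1 - ∑ k : Fin d, ind (Forced q d n (y k) i)
        - ∑ c ∈ Finset.univ.erase i, ∏ k : Fin d, ind (¬ Forced q d n (y k) c)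
      ≤ ind (Forced q d (n + 1) y i) := by
  have hs1 : 0 ≤ ∑ k : Fin d, ind (Forced q d n (y k) i) :=
    Finset.sum_nonneg fun k _ => ind_nonneg _
  have hs2 : 0 ≤ ∑ c ∈ Finset.univ.erase i, ∏ k : Fin d, ind (¬ Forced q d n (y k) c) :=
    Finset.sum_nonneg fun c _ => Finset.prod_nonneg fun k _ => ind_nonneg _
  by_cases h : Forced q d (n + 1) y i
  · rw [ind_of _ h]; linarith
  · rw [ind_of_not _ h]
    have h' : ¬ ((∀ k : Fin d, ¬ Forced q d n (y k) i) ∧
        ∀ c' : Fin q, c' ≠ i → ∃ k : Fin d, Forced q d n (y k) c') := h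
    rw [not_and_or] at h'
    rcases h' with h1 | h2
    · obtain ⟨k, hk'⟩ := not_forall.mp h1
      have hk : Forced q d n (y k) i := not_not.mp hk'
      have : (1 : ℝ) ≤ ∑ k : Fin d, ind (Forced q d n (y k) i) := by
        calc (1 : ℝ) = ind (Forced q d n (y k) i) := (ind_of _ hk).symm
          _ ≤ ∑ k : Fin d, ind (Forced q d n (y k) i) :=
            Finset.single_le_sum (f := fun k => ind (Forced q d n (y k) i))
              (fun k _ => ind_nonneg _) (Finset.mem_univ k)
      linarith
    · obtain ⟨c, hc'⟩ := not_forall.mp h2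
      obtain ⟨hc, hall'⟩ := Classical.not_imp.mp hc'
      have hall : ∀ k : Fin d, ¬ Forced q d n (y k) c := not_exists.mp hall'
      have hmem : c ∈ Finset.univ.erase i := Finset.mem_erase.mpr ⟨hc, Finset.mem_univ c⟩
      have : (1 : ℝ) ≤ ∑ c ∈ Finset.univ.erase i,
          ∏ k : Fin d, ind (¬ Forced q d n (y k) c) := by
        calc (1 : ℝ) = ∏ k : Fin d, ind (¬ Forced q d n (y k) c) := by
              rw [Finset.prod_eq_one]
              intro k _
              exact ind_of _ (hall k)
          _ ≤ ∑ c ∈ Finset.univ.erase i, ∏ k : Fin d, ind (¬ Forced q d n (y k) c) :=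
            Finset.single_le_sum
              (f := fun c => ∏ k : Fin d, ind (¬ Forced q d n (y k) c))
              (fun c _ => Finset.prod_nonneg fun k _ => ind_nonneg _) hmem
      linarith

theorem forced_succ_le (q d n : ℕ) (y : Fin d → LevelConfig q d n) (i c : Fin q)
    (hic : i ≠ c) :
    ind (Forced q d (n + 1) y c)
      ≤ ∑ k0 : Fin d, ind (Forced q d n (y k0) i) *
          ∏ k ∈ Finset.univ.erase k0, ind (¬ Forced q d n (y k) c) := by
  have hnn : ∀ k0 : Fin d, 0 ≤ ind (Forced q d n (y k0) i) *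
      ∏ k ∈ Finset.univ.erase k0, ind (¬ Forced q d n (y k) c) := fun k0 =>
    mul_nonneg (ind_nonneg _) (Finset.prod_nonneg fun k _ => ind_nonneg _)
  by_cases h : Forced q d (n + 1) y c
  · rw [ind_of _ h]
    have h' : (∀ k : Fin d, ¬ Forced q d n (y k) c) ∧
        ∀ c' : Fin q, c' ≠ c → ∃ k : Fin d, Forced q d n (y k) c' := h
    obtain ⟨k0, hk0⟩ := h'.2 i hic
    calc (1 : ℝ) = ind (Forced q d n (y k0) i) *
          ∏ k ∈ Finset.univ.erase k0, ind (¬ Forced q d n (y k) c) := by
          rw [ind_of _ hk0, Finset.prod_eq_one, mul_one]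
          intro k _
          exact ind_of _ (h'.1 k)
      _ ≤ ∑ k0 : Fin d, ind (Forced q d n (y k0) i) *
          ∏ k ∈ Finset.univ.erase k0, ind (¬ Forced q d n (y k) c) :=
        Finset.single_le_sum (f := fun k0 => ind (Forced q d n (y k0) i) *
          ∏ k ∈ Finset.univ.erase k0, ind (¬ Forced q d n (y k) c))
          (fun k0 _ => hnn k0) (Finset.mem_univ k0)
  · rw [ind_of_not _ h]
    exact Finset.sum_nonneg fun k0 _ => hnn k0

/-- Success recursion: the decoder reads the true spin unless a child reads the spin of its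
parent or some other spin is read below no child. -/
theorem forcedProb_succ_self_ge (q d : ℕ) (hq : 0 < q) (lam : ℝ)
    (hM : ∀ i j : Fin q, 0 ≤ pottsChannel q lam i j) (n : ℕ) (i : Fin q) :
    1 - (d : ℝ) * childForced q d lam n i i
        - ∑ c ∈ Finset.univ.erase i, (1 - childForced q d lam n i c) ^ d
      ≤ forcedProb q d lam (n + 1) i i := by
  unfold forcedProb
  rw [sum_level_succ]
  have hw : ∀ y : Fin d → LevelConfig q d n,
      0 ≤ ∏ k : Fin d, childProb q d lam n i (y k) := fun y =>
    Finset.prod_nonneg fun k _ => childProb_nonneg q d lam hM n i (y k)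
  have hpt : ∀ y : Fin d → LevelConfig q d n,
      (∏ k : Fin d, childProb q d lam n i (y k)) *
        (1 - ∑ k : Fin d, ind (Forced q d n (y k) i)
          - ∑ c ∈ Finset.univ.erase i, ∏ k : Fin d, ind (¬ Forced q d n (y k) c))
      ≤ levelProb q d lam (n + 1) i y * ind (Forced q d (n + 1) y i) := by
    intro y
    rw [levelProb_succ]
    exact mul_le_mul_of_nonneg_left (forced_succ_ge q d n y i) (hw y)
  refine le_trans (le_of_eq ?_) (Finset.sum_le_sum fun y _ => hpt y)
  simp only [mul_sub, mul_one, Finset.mul_sum, Finset.sum_sub_distrib]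
  rw [sum_prod_one _ (childProb_sum q d hq lam n i)]
  congr 1
  · congr 1
    rw [Finset.sum_comm]
    have hk : ∀ k ∈ (Finset.univ : Finset (Fin d)),
        ∑ y : Fin d → LevelConfig q d n,
          (∏ k : Fin d, childProb q d lam n i (y k)) * ind (Forced q d n (y k) i)
        = childForced q d lam n i i := fun k _ =>
      sum_prod_single (childProb q d lam n i) (fun x => ind (Forced q d n x i))
        (childProb_sum q d hq lam n i) k
    rw [Finset.sum_congr rfl hk, Finset.sum_const, Finset.card_univ, Fintype.card_fin,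
      nsmul_eq_mul]
  · rw [Finset.sum_comm]
    refine Finset.sum_congr rfl fun c _ => ?_
    rw [← childNotForced_eq q d hq lam n i c]
    exact (sum_prod_all (childProb q d lam n i) (fun x => ind (¬ Forced q d n x c))).symm

/-- Error recursion: the decoder reads a wrong spin `c` only if some child reads the spin of
its parent and no other child reads `c`. -/
theorem forcedProb_succ_ne_le (q d : ℕ) (hq : 0 < q) (lam : ℝ)
    (hM : ∀ i j : Fin q, 0 ≤ pottsChannel q lam i j) (n : ℕ) (i c : Fin q) (hic : i ≠ c) :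
    forcedProb q d lam (n + 1) i c
      ≤ (d : ℝ) * (childForced q d lam n i i * (1 - childForced q d lam n i c) ^ (d - 1)) := by
  unfold forcedProb
  rw [sum_level_succ]
  have hw : ∀ y : Fin d → LevelConfig q d n,
      0 ≤ ∏ k : Fin d, childProb q d lam n i (y k) := fun y =>
    Finset.prod_nonneg fun k _ => childProb_nonneg q d lam hM n i (y k)
  have hpt : ∀ y : Fin d → LevelConfig q d n,
      levelProb q d lam (n + 1) i y * ind (Forced q d (n + 1) y c)
      ≤ (∏ k : Fin d, childProb q d lam n i (y k)) *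
        ∑ k0 : Fin d, ind (Forced q d n (y k0) i) *
          ∏ k ∈ Finset.univ.erase k0, ind (¬ Forced q d n (y k) c) := by
    intro y
    rw [levelProb_succ]
    exact mul_le_mul_of_nonneg_left (forced_succ_le q d n y i c hic) (hw y)
  refine le_trans (Finset.sum_le_sum fun y _ => hpt y) (le_of_eq ?_)
  simp only [Finset.mul_sum]
  rw [Finset.sum_comm]
  have hk : ∀ k0 ∈ (Finset.univ : Finset (Fin d)),
      ∑ y : Fin d → LevelConfig q d n,
        (∏ k : Fin d, childProb q d lam n i (y k)) *
          (ind (Forced q d n (y k0) i) *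
            ∏ k ∈ Finset.univ.erase k0, ind (¬ Forced q d n (y k) c))
      = childForced q d lam n i i * (1 - childForced q d lam n i c) ^ (d - 1) := by
    intro k0 _
    rw [← childNotForced_eq q d hq lam n i c]
    exact sum_prod_single_all (childProb q d lam n i) (fun x => ind (Forced q d n x i))
      (fun x => ind (¬ Forced q d n x c)) k0
  rw [Finset.sum_congr rfl hk, Finset.sum_const, Finset.card_univ, Fintype.card_fin,
    nsmul_eq_mul]

end Vale.Agent.H41

namespace Vale.Agent.H41

/-! ### From the decoder to the reconstruction bias -/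

theorem tv_lower (q : ℕ) (hq : 0 < q) (x : Fin q → ℝ) (hx : ∀ i, 0 ≤ x i) (c : Fin q) :
    x c - (1 / (q : ℝ)) * (∑ i : Fin q, x i)
      ≤ (∑ i : Fin q, x i) *
        ((1 / 2 : ℝ) * ∑ i : Fin q, |x i / (∑ i : Fin q, x i) - 1 / (q : ℝ)|) := by
  have hq' : (q : ℝ) ≠ 0 := by exact_mod_cast hq.ne'
  set P : ℝ := ∑ i : Fin q, x i with hP
  have hP0 : 0 ≤ P := Finset.sum_nonneg fun i _ => hx i
  rcases hP0.eq_or_lt with h0 | hpos
  · have hall : ∀ i ∈ (Finset.univ : Finset (Fin q)), x i = 0 :=
      (Finset.sum_eq_zero_iff_of_nonneg fun i _ => hx i).mp h0.symm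
    rw [hall c (Finset.mem_univ c), ← h0]
    simp
  · have hz : ∀ i : Fin q, P * |x i / P - 1 / (q : ℝ)| = |x i - (1 / (q : ℝ)) * P| := by
      intro i
      rw [← abs_of_pos hpos, ← abs_mul, abs_of_pos hpos]
      congr 1
      field_simp
    have hsum : P * ((1 / 2 : ℝ) * ∑ i : Fin q, |x i / P - 1 / (q : ℝ)|)
        = (1 / 2 : ℝ) * ∑ i : Fin q, |x i - (1 / (q : ℝ)) * P| := by
      rw [← mul_assoc, mul_comm P, mul_assoc, Finset.mul_sum]
      simp only [hz]
    rw [hsum]
    have hzero : ∑ i : Fin q, (x i - (1 / (q : ℝ)) * P) = 0 := by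
      rw [Finset.sum_sub_distrib, Finset.sum_const, Finset.card_univ, Fintype.card_fin,
        nsmul_eq_mul, ← hP]
      field_simp
      ring
    have hsplit : ∑ i : Fin q, |x i - (1 / (q : ℝ)) * P|
        = |x c - (1 / (q : ℝ)) * P|
          + ∑ i ∈ Finset.univ.erase c, |x i - (1 / (q : ℝ)) * P| :=
      (Finset.add_sum_erase Finset.univ (fun i => |x i - (1 / (q : ℝ)) * P|)
        (Finset.mem_univ c)).symm
    have hsplit0 : (x c - (1 / (q : ℝ)) * P)
          + ∑ i ∈ Finset.univ.erase c, (x i - (1 / (q : ℝ)) * P) = 0 := by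
      rw [Finset.add_sum_erase Finset.univ (fun i => x i - (1 / (q : ℝ)) * P)
        (Finset.mem_univ c)]
      exact hzero
    have habs : |∑ i ∈ Finset.univ.erase c, (x i - (1 / (q : ℝ)) * P)|
        ≤ ∑ i ∈ Finset.univ.erase c, |x i - (1 / (q : ℝ)) * P| :=
      Finset.abs_sum_le_sum_abs _ _
    have h1 : x c - (1 / (q : ℝ)) * P ≤ |x c - (1 / (q : ℝ)) * P| := le_abs_self _
    have h2 : x c - (1 / (q : ℝ)) * P
        ≤ |∑ i ∈ Finset.univ.erase c, (x i - (1 / (q : ℝ)) * P)| := by
      have : ∑ i ∈ Finset.univ.erase c, (x i - (1 / (q : ℝ)) * P)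
          = -(x c - (1 / (q : ℝ)) * P) := by linarith
      rw [this, abs_neg]
      exact le_abs_self _
    rw [hsplit]
    linarith

theorem bias_pointwise (q d : ℕ) (hq : 0 < q) (lam : ℝ)
    (hM : ∀ i j : Fin q, 0 ≤ pottsChannel q lam i j) (n : ℕ) (y : LevelConfig q d n) :
    ∑ c : Fin q, ind (Forced q d n y c) *
        ((1 / (q : ℝ)) * levelProb q d lam n c y - (1 / (q : ℝ)) * levelMarginal q d lam n y)
      ≤ levelMarginal q d lam n y *
        ((1 / 2 : ℝ) * ∑ i : Fin q, |rootPosterior q d lam n i y - 1 / (q : ℝ)|) := by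
  have hq0 : (0 : ℝ) ≤ 1 / (q : ℝ) := by positivity
  have hx : ∀ i : Fin q, 0 ≤ (1 / (q : ℝ)) * levelProb q d lam n i y := fun i =>
    mul_nonneg hq0 (levelProb_nonneg q d lam hM n i y)
  have key : ∀ c : Fin q,
      (1 / (q : ℝ)) * levelProb q d lam n c y - (1 / (q : ℝ)) * levelMarginal q d lam n y
      ≤ levelMarginal q d lam n y *
        ((1 / 2 : ℝ) * ∑ i : Fin q, |rootPosterior q d lam n i y - 1 / (q : ℝ)|) := fun c =>
    tv_lower q hq (fun i => (1 / (q : ℝ)) * levelProb q d lam n i y) hx c
  have hR : 0 ≤ levelMarginal q d lam n y *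
        ((1 / 2 : ℝ) * ∑ i : Fin q, |rootPosterior q d lam n i y - 1 / (q : ℝ)|) := by
    refine mul_nonneg (Finset.sum_nonneg fun i _ => hx i) (mul_nonneg (by norm_num) ?_)
    exact Finset.sum_nonneg fun i _ => abs_nonneg _
  by_cases hex : ∃ c0 : Fin q, Forced q d n y c0
  · obtain ⟨c0, hc0⟩ := hex
    rw [Finset.sum_eq_single c0]
    · rw [ind_of _ hc0, one_mul]
      exact key c0
    · intro c _ hc
      have : ¬ Forced q d n y c := fun h => hc (forced_unique q d n y c c0 h hc0)
      rw [ind_of_not _ this, zero_mul]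
    · intro h
      exact absurd (Finset.mem_univ c0) h
  · have : ∀ c ∈ (Finset.univ : Finset (Fin q)), ind (Forced q d n y c) *
        ((1 / (q : ℝ)) * levelProb q d lam n c y
          - (1 / (q : ℝ)) * levelMarginal q d lam n y) = 0 := by
      intro c _
      have hc : ¬ Forced q d n y c := fun h => hex ⟨c, h⟩
      rw [ind_of_not _ hc, zero_mul]
    rw [Finset.sum_eq_zero this]
    exact hR

theorem marginal_forced (q d : ℕ) (lam : ℝ) (n : ℕ) (c : Fin q) :
    ∑ y : LevelConfig q d n, ind (Forced q d n y c) * levelMarginal q d lam n y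
      = (1 / (q : ℝ)) * ∑ i : Fin q, forcedProb q d lam n i c := by
  unfold levelMarginal forcedProb
  simp only [Finset.mul_sum]
  rw [Finset.sum_comm]
  refine Finset.sum_congr rfl fun i _ => Finset.sum_congr rfl fun y _ => ?_
  ring

/-- The reconstruction bias dominates the advantage of the decoder. -/
theorem reconstructionBias_ge (q d : ℕ) (hq : 0 < q) (lam : ℝ)
    (hM : ∀ i j : Fin q, 0 ≤ pottsChannel q lam i j) (n : ℕ) :
    (1 / (q : ℝ)) * ∑ c : Fin q, forcedProb q d lam n c c
        - (1 / (q : ℝ)) * ((1 / (q : ℝ)) * ∑ c : Fin q, ∑ i : Fin q, forcedProb q d lam n i c)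
      ≤ reconstructionBias q d lam n := by
  unfold reconstructionBias
  refine le_trans (le_of_eq ?_) (Finset.sum_le_sum fun y _ => bias_pointwise q d hq lam hM n y)
  have hc : ∀ c : Fin q, ∑ y : LevelConfig q d n, ind (Forced q d n y c) *
        ((1 / (q : ℝ)) * levelProb q d lam n c y - (1 / (q : ℝ)) * levelMarginal q d lam n y)
      = (1 / (q : ℝ)) * forcedProb q d lam n c c
        - (1 / (q : ℝ)) * ((1 / (q : ℝ)) * ∑ i : Fin q, forcedProb q d lam n i c) := by
    intro c
    rw [← marginal_forced q d lam n c]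
    unfold forcedProb
    rw [Finset.mul_sum, Finset.mul_sum, ← Finset.sum_sub_distrib]
    refine Finset.sum_congr rfl fun y _ => ?_
    ring
  have hswap : ∑ y : LevelConfig q d n, ∑ c : Fin q, ind (Forced q d n y c) *
        ((1 / (q : ℝ)) * levelProb q d lam n c y - (1 / (q : ℝ)) * levelMarginal q d lam n y)
      = ∑ c : Fin q, ∑ y : LevelConfig q d n, ind (Forced q d n y c) *
        ((1 / (q : ℝ)) * levelProb q d lam n c y
          - (1 / (q : ℝ)) * levelMarginal q d lam n y) := Finset.sum_comm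
  rw [hswap, Finset.sum_congr rfl fun c _ => hc c, Finset.sum_sub_distrib, ← Finset.mul_sum,
    ← Finset.mul_sum, ← Finset.mul_sum]

end Vale.Agent.H41

namespace Vale.Agent.H41

/-! ### The invariant region -/

theorem childForced_self_le (q d : ℕ) (hq : 0 < q) (lam : ℝ)
    (hM : ∀ i j : Fin q, 0 ≤ pottsChannel q lam i j) (n : ℕ) (m r0 : ℝ) (hr0 : 0 ≤ r0)
    (hdiag : ∀ i : Fin q, pottsChannel q lam i i ≤ m)
    (herr : ∀ i c : Fin q, i ≠ c → forcedProb q d lam n i c ≤ r0) (i : Fin q) :
    childForced q d lam n i i ≤ m + r0 := by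
  rw [childForced_eq,
    ← Finset.add_sum_erase Finset.univ
      (fun j => pottsChannel q lam i j * forcedProb q d lam n j i) (Finset.mem_univ i)]
  have h1 : pottsChannel q lam i i * forcedProb q d lam n i i ≤ m := by
    calc pottsChannel q lam i i * forcedProb q d lam n i i
        ≤ pottsChannel q lam i i * 1 :=
          mul_le_mul_of_nonneg_left (forcedProb_le_one q d hq lam hM n i i) (hM i i)
      _ = pottsChannel q lam i i := mul_one _
      _ ≤ m := hdiag i
  have h2 : ∑ j ∈ Finset.univ.erase i, pottsChannel q lam i j * forcedProb q d lam n j i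
      ≤ ∑ j ∈ Finset.univ.erase i, pottsChannel q lam i j * r0 := by
    refine Finset.sum_le_sum fun j hj => ?_
    exact mul_le_mul_of_nonneg_left (herr j i (Finset.ne_of_mem_erase hj)) (hM i j)
  have h3 : ∑ j ∈ Finset.univ.erase i, pottsChannel q lam i j ≤ 1 := by
    have := Finset.add_sum_erase Finset.univ (fun j => pottsChannel q lam i j)
      (Finset.mem_univ i)
    rw [pottsChannel_sum q hq lam i] at this
    have h0 := hM i i
    linarith
  have h4 : ∑ j ∈ Finset.univ.erase i, pottsChannel q lam i j * r0 ≤ r0 := by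
    rw [← Finset.sum_mul]
    calc (∑ j ∈ Finset.univ.erase i, pottsChannel q lam i j) * r0 ≤ 1 * r0 :=
          mul_le_mul_of_nonneg_right h3 hr0
      _ = r0 := one_mul _
  linarith

theorem childForced_ne_ge (q d : ℕ) (lam : ℝ)
    (hM : ∀ i j : Fin q, 0 ≤ pottsChannel q lam i j) (n : ℕ) (b p0 : ℝ) (hb : 0 ≤ b)
    (hoff : ∀ i c : Fin q, i ≠ c → b ≤ pottsChannel q lam i c)
    (hsucc : ∀ i : Fin q, p0 ≤ forcedProb q d lam n i i) (i c : Fin q) (hic : i ≠ c) :
    b * p0 ≤ childForced q d lam n i c := by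
  rw [childForced_eq]
  calc b * p0 ≤ b * forcedProb q d lam n c c := mul_le_mul_of_nonneg_left (hsucc c) hb
    _ ≤ pottsChannel q lam i c * forcedProb q d lam n c c :=
      mul_le_mul_of_nonneg_right (hoff i c hic) (forcedProb_nonneg q d lam hM n c c)
    _ ≤ ∑ j : Fin q, pottsChannel q lam i j * forcedProb q d lam n j c :=
      Finset.single_le_sum (f := fun j => pottsChannel q lam i j * forcedProb q d lam n j c)
        (fun j _ => mul_nonneg (hM i j) (forcedProb_nonneg q d lam hM n j c))
        (Finset.mem_univ c)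

/-- One step of the induction: bounds on the decoder at distance `n` give bounds at distance
`n + 1`. -/
theorem forcedProb_step (q d : ℕ) (hq : 0 < q) (lam : ℝ)
    (hM : ∀ i j : Fin q, 0 ≤ pottsChannel q lam i j) (n : ℕ) (m b p0 r0 : ℝ)
    (hr0 : 0 ≤ r0) (hb : 0 ≤ b)
    (hdiag : ∀ i : Fin q, pottsChannel q lam i i ≤ m)
    (hoff : ∀ i c : Fin q, i ≠ c → b ≤ pottsChannel q lam i c)
    (hsucc : ∀ i : Fin q, p0 ≤ forcedProb q d lam n i i)
    (herr : ∀ i c : Fin q, i ≠ c → forcedProb q d lam n i c ≤ r0) :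
    (∀ i : Fin q, 1 - (d : ℝ) * (m + r0) - ((q : ℝ) - 1) * (1 - b * p0) ^ d
        ≤ forcedProb q d lam (n + 1) i i) ∧
      ∀ i c : Fin q, i ≠ c →
        forcedProb q d lam (n + 1) i c ≤ (d : ℝ) * ((m + r0) * (1 - b * p0) ^ (d - 1)) := by
  have hA : ∀ i : Fin q, childForced q d lam n i i ≤ m + r0 :=
    childForced_self_le q d hq lam hM n m r0 hr0 hdiag herr
  have hB : ∀ i c : Fin q, i ≠ c → 1 - childForced q d lam n i c ≤ 1 - b * p0 := by
    intro i c hic
    have := childForced_ne_ge q d lam hM n b p0 hb hoff hsucc i c hic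
    linarith
  have hB0 : ∀ i c : Fin q, 0 ≤ 1 - childForced q d lam n i c :=
    childNotForced_nonneg q d hq lam hM n
  have hd0 : (0 : ℝ) ≤ (d : ℝ) := Nat.cast_nonneg d
  constructor
  · intro i
    refine le_trans ?_ (forcedProb_succ_self_ge q d hq lam hM n i)
    have h1 : (d : ℝ) * childForced q d lam n i i ≤ (d : ℝ) * (m + r0) :=
      mul_le_mul_of_nonneg_left (hA i) hd0
    have h2 : ∑ c ∈ Finset.univ.erase i, (1 - childForced q d lam n i c) ^ d
        ≤ ((q : ℝ) - 1) * (1 - b * p0) ^ d := by
      calc ∑ c ∈ Finset.univ.erase i, (1 - childForced q d lam n i c) ^ d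
          ≤ ∑ _c ∈ Finset.univ.erase i, (1 - b * p0) ^ d := by
            refine Finset.sum_le_sum fun c hc => ?_
            exact pow_le_pow_left₀ (hB0 i c)
              (hB i c (Finset.ne_of_mem_erase hc).symm) d
        _ = ((q : ℝ) - 1) * (1 - b * p0) ^ d := by
            rw [Finset.sum_const, Finset.card_erase_of_mem (Finset.mem_univ i),
              Finset.card_univ, Fintype.card_fin, nsmul_eq_mul, Nat.cast_sub hq]
            simp
    linarith
  · intro i c hic
    refine le_trans (forcedProb_succ_ne_le q d hq lam hM n i c hic) ?_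
    refine mul_le_mul_of_nonneg_left ?_ hd0
    exact mul_le_mul (hA i) (pow_le_pow_left₀ (hB0 i c) (hB i c hic) (d - 1))
      (pow_nonneg (hB0 i c) (d - 1))
      (le_trans (childForced_nonneg q d lam hM n i i) (hA i))

end Vale.Agent.H41

namespace Vale.Agent.H41

/-! ### Four states on the `9`-ary tree -/

theorem potts4_nonneg (lam : ℝ) (h1 : -1 / 3 ≤ lam) (h2 : lam ≤ 1) (i j : Fin 4) :
    0 ≤ pottsChannel 4 lam i j := by
  unfold pottsChannel
  split_ifs <;> push_cast <;> linarith

theorem potts4_diag (lam : ℝ) (h2 : lam ≤ -1 / 3 + 1 / 2000) (i : Fin 4) :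
    pottsChannel 4 lam i i ≤ 3 / 8000 := by
  unfold pottsChannel
  rw [if_pos rfl]
  push_cast
  linarith

theorem potts4_off (lam : ℝ) (h2 : lam ≤ -1 / 3 + 1 / 2000) (i c : Fin 4) (hic : i ≠ c) :
    (7997 / 24000 : ℝ) ≤ pottsChannel 4 lam i c := by
  unfold pottsChannel
  rw [if_neg hic]
  push_cast
  linarith

theorem forcedProb_invariant (lam : ℝ) (h1 : -1 / 3 ≤ lam) (h2 : lam ≤ -1 / 3 + 1 / 2000) :
    ∀ n : ℕ, (∀ i : Fin 4, (4 / 5 : ℝ) ≤ forcedProb 4 9 lam n i i) ∧
      ∀ i c : Fin 4, i ≠ c → forcedProb 4 9 lam n i c ≤ (3 / 2500 : ℝ)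
  | 0 => by
    constructor
    · intro i
      rw [forcedProb_zero_self]; norm_num
    · intro i c hic
      rw [forcedProb_zero_ne 4 9 lam i c hic]; norm_num
  | n + 1 => by
    obtain ⟨hsucc, herr⟩ := forcedProb_invariant lam h1 h2 n
    have hM : ∀ i j : Fin 4, 0 ≤ pottsChannel 4 lam i j :=
      potts4_nonneg lam h1 (by linarith)
    obtain ⟨hs, he⟩ := forcedProb_step 4 9 (by norm_num) lam hM n (3 / 8000) (7997 / 24000)
      (4 / 5) (3 / 2500) (by norm_num) (by norm_num) (potts4_diag lam h2) (potts4_off lam h2)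
      hsucc herr
    constructor
    · intro i
      refine le_trans ?_ (hs i)
      norm_num
    · intro i c hic
      refine le_trans (he i c hic) ?_
      norm_num

/-- For the four-state Potts channel on the `9`-ary tree and every `lam` between `-1/3` and
`-1/3 + 1/2000`, the reconstruction bias is at least `1/2` at every distance. -/
theorem potts4_tree9_bias (lam : ℝ) (h1 : -1 / 3 ≤ lam) (h2 : lam ≤ -1 / 3 + 1 / 2000)
    (n : ℕ) : (1 / 2 : ℝ) ≤ reconstructionBias 4 9 lam n := by
  obtain ⟨hsucc, herr⟩ := forcedProb_invariant lam h1 h2 n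
  have hM : ∀ i j : Fin 4, 0 ≤ pottsChannel 4 lam i j :=
    potts4_nonneg lam h1 (by linarith)
  refine le_trans ?_ (reconstructionBias_ge 4 9 (by norm_num) lam hM n)
  have hS : (4 : ℝ) * (4 / 5) ≤ ∑ c : Fin 4, forcedProb 4 9 lam n c c := by
    calc (4 : ℝ) * (4 / 5) = ∑ _c : Fin 4, (4 / 5 : ℝ) := by
          rw [Finset.sum_const, Finset.card_univ, Fintype.card_fin]; norm_num
      _ ≤ ∑ c : Fin 4, forcedProb 4 9 lam n c c := Finset.sum_le_sum fun c _ => hsucc c
  have hT : ∑ c : Fin 4, ∑ i : Fin 4, forcedProb 4 9 lam n i c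
      ≤ ∑ c : Fin 4, forcedProb 4 9 lam n c c + 4 * (3 * (3 / 2500)) := by
    have hc : ∀ c ∈ (Finset.univ : Finset (Fin 4)), ∑ i : Fin 4, forcedProb 4 9 lam n i c
        ≤ forcedProb 4 9 lam n c c + 3 * (3 / 2500) := by
      intro c _
      rw [← Finset.add_sum_erase Finset.univ (fun i => forcedProb 4 9 lam n i c)
        (Finset.mem_univ c)]
      have hle : ∑ i ∈ Finset.univ.erase c, forcedProb 4 9 lam n i c
          ≤ ∑ _i ∈ Finset.univ.erase c, (3 / 2500 : ℝ) :=
        Finset.sum_le_sum fun i hi => herr i c (Finset.ne_of_mem_erase hi)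
      have hconst : ∑ _i ∈ Finset.univ.erase c, (3 / 2500 : ℝ) = 3 * (3 / 2500) := by
        rw [Finset.sum_const, Finset.card_erase_of_mem (Finset.mem_univ c), Finset.card_univ,
          Fintype.card_fin]
        norm_num
      rw [hconst] at hle
      linarith
    calc ∑ c : Fin 4, ∑ i : Fin 4, forcedProb 4 9 lam n i c
        ≤ ∑ c : Fin 4, (forcedProb 4 9 lam n c c + 3 * (3 / 2500)) := Finset.sum_le_sum hc
      _ = ∑ c : Fin 4, forcedProb 4 9 lam n c c + 4 * (3 * (3 / 2500)) := by
          rw [Finset.sum_add_distrib, Finset.sum_const, Finset.card_univ, Fintype.card_fin]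
          norm_num
  push_cast
  linarith

end Vale.Agent.H41
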