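import Mathlib

/-!
# Broadcasting with the Potts channel on the rooted `d`-ary tree

Explicit finite-sum definitions for the reconstruction problem on the rooted `d`-ary tree
(every vertex has exactly `d` children).
-/

namespace Vale.Agent.H41

/-- The `q`-state Potts channel with nontrivial eigenvalue `lam`:
`pottsChannel q lam i j` is the probability `P_lam(j | i) = lam * 1{i = j} + (1 - lam) / q`
that a child receives spin `j` when its parent has spin `i`. -/
noncomputable def pottsChannel (q : ℕ) (lam : ℝ) (i j : Fin q) : ℝ :=
  (if i = j then lam else 0) + (1 - lam) / (q : ℝ)

/-- Spin configurations of the `d ^ n` vertices at distance `n` from the root of the rooted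
`d`-ary tree, described recursively: a configuration at distance `0` is the spin of the root,
and a configuration at distance `n + 1` assigns to each of the `d` children of the root a
configuration at distance `n` in the subtree of that child. -/
def LevelConfig (q d : ℕ) : ℕ → Type
  | 0 => Fin q
  | n + 1 => Fin d → LevelConfig q d n

/-- There are finitely many configurations on each level. -/
instance LevelConfig.instFintype (q d : ℕ) : (n : ℕ) → Fintype (LevelConfig q d n)
  | 0 => (inferInstance : Fintype (Fin q))
  | n + 1 =>
    haveI := LevelConfig.instFintype q d n
    (inferInstance : Fintype (Fin d → LevelConfig q d n))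

/-- `levelProb q d lam n i y` is the probability that the spins at distance `n` from the root
form the configuration `y`, given that the root has spin `i`, when every edge independently
passes the spin of the parent to the child through the Potts channel. -/
noncomputable def levelProb (q d : ℕ) (lam : ℝ) :
    (n : ℕ) → Fin q → LevelConfig q d n → ℝ
  | 0, i, y => if (show Fin q from y) = i then 1 else 0
  | n + 1, i, y =>
    ∏ k : Fin d, ∑ j : Fin q, pottsChannel q lam i j * levelProb q d lam n j (y k)

/-- The probability of the configuration `y` at distance `n` when the root spin is uniform. -/
noncomputable def levelMarginal (q d : ℕ) (lam : ℝ) (n : ℕ) (y : LevelConfig q d n) : ℝ :=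
  ∑ i : Fin q, (1 / (q : ℝ)) * levelProb q d lam n i y

/-- The posterior probability that the root has spin `i` given the configuration `y` at
distance `n` (root spin uniform a priori). -/
noncomputable def rootPosterior (q d : ℕ) (lam : ℝ) (n : ℕ) (i : Fin q)
    (y : LevelConfig q d n) : ℝ :=
  (1 / (q : ℝ)) * levelProb q d lam n i y / levelMarginal q d lam n y

/-- The quantity `a_n` of the reconstruction problem on the rooted `d`-ary tree: the expected
total variation distance between the posterior law of the root spin given the spins at
distance `n` and the uniform law,
`a_n = E[(1/2) * ∑ i, |Pr(root = i | spins at distance n) - 1/q|]`. -/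
noncomputable def reconstructionBias (q d : ℕ) (lam : ℝ) (n : ℕ) : ℝ :=
  ∑ y : LevelConfig q d n, levelMarginal q d lam n y *
    ((1 / 2 : ℝ) * ∑ i : Fin q, |rootPosterior q d lam n i y - 1 / (q : ℝ)|)

end Vale.Agent.H41
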